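import Mathlib

/-!
# P216: Riemannian metrics on round spheres, statement-level definitions

The sphere is the unit sphere of a real inner product space `E` (for `E = EuclideanSpace ℝ (Fin (n + 1))`
it is the `n`-sphere); its tangent space at `x` is the set of `v` with `inner ℝ x v = 0`.  A
Riemannian metric is given by a field `Q` of quadratic forms on `E`, through `g_x (v, v) = Q x v`
for tangent `v`.  The speed of a curve `γ` on the sphere at time `t` is
`Real.sqrt (Q (γ t) (deriv γ t))`.
-/

namespace Vale.Agent.H58.Sph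

variable {E : Type*} [NormedAddCommGroup E] [InnerProductSpace ℝ E]

/-- Length of the curve `γ` on `[a, b]` for the metric `g_x (v, v) = Q x v` on the unit sphere. -/
noncomputable def lenS (Q : E → QuadraticForm ℝ E) (γ : ℝ → E) (a b : ℝ) : ℝ :=
  ∫ t in a..b, Real.sqrt (Q (γ t) (deriv γ t))

/-- `c` is a geodesic of the metric given by `Q`, in the metric characterisation: `c` is a smooth
curve on the unit sphere of `E`, it has constant speed `v > 0` (its length on `[s, s']` is
`v * (s' - s)`), and it is locally length-minimising: there is `δ > 0` such that on every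
parameter interval `[s, s']` of length at most `δ` the curve `c` is not longer than any `C^1` curve
`γ` on the sphere (defined on any `[a, b]`) with the same end points. -/
def IsGeodS (Q : E → QuadraticForm ℝ E) (c : ℝ → E) : Prop :=
  ContDiff ℝ (⊤ : ℕ∞) c ∧ (∀ t, ‖c t‖ = 1) ∧
    (∃ v : ℝ, 0 < v ∧ ∀ s s' : ℝ, s ≤ s' → lenS Q c s s' = v * (s' - s)) ∧
    ∃ δ : ℝ, 0 < δ ∧ ∀ s s' : ℝ, s ≤ s' → s' ≤ s + δ →
      ∀ (γ : ℝ → E) (a b : ℝ), a ≤ b → ContDiff ℝ 1 γ →
        (∀ t ∈ Set.Icc a b, ‖γ t‖ = 1) → γ a = c s → γ b = c s' →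
          lenS Q c s s' ≤ lenS Q γ a b

end Vale.Agent.H58.Sph
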