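import Mathlib
import Vale.Agent.H58.Sph.Defs
import Vale.Agent.H58.Geod.Round
import Vale.Agent.H58.Geod.CircA

/-!
# P216: great circles of minimal speed are geodesics

Let `Q` be a smooth field of quadratic forms on a real inner product space `E` with
`Q x v ≥ lam * ‖v‖ ^ 2` for all unit `x` and all `v` orthogonal to `x` (the metric on the unit
sphere dominates `lam` times the round metric).  If the great circle `circ u w` (`u`, `w`
orthonormal) has speed `√lam` everywhere, then it is a geodesic in the sense of `IsGeodS`, with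
`δ = π`: a competitor has length at least `√lam` times its round length, which is at least the
angle between its end points (`angle_le_integral`), and that angle is `s' - s` (`circ_angle`).
-/

namespace Vale.Agent.H58.Sph

open InnerProductGeometry Vale.Agent.H58.Geod

variable {E : Type*} [NormedAddCommGroup E] [InnerProductSpace ℝ E]

/-- The speed of a `C^1` curve is continuous. -/
theorem sph_speed_continuous (Q : E → QuadraticForm ℝ E)
    (hsm : ContDiff ℝ (⊤ : ℕ∞) (fun p : E × E => Q p.1 p.2))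
    (γ : ℝ → E) (hγ : ContDiff ℝ 1 γ) :
    Continuous fun t => Real.sqrt (Q (γ t) (deriv γ t)) := by
  have h1 : Continuous γ := hγ.continuous
  have h2 : Continuous (deriv γ) := hγ.continuous_deriv le_rfl
  have h3 : Continuous fun t => (γ t, deriv γ t) := h1.prodMk h2
  exact Real.continuous_sqrt.comp (hsm.continuous.comp h3)

/-- Pointwise: the speed of a curve on the sphere is at least `√lam` times its round speed. -/
theorem sph_speed_ge (Q : E → QuadraticForm ℝ E) (lam : ℝ) (hlam : 0 < lam)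
    (hmin : ∀ x v : E, ‖x‖ = 1 → inner ℝ x v = 0 → lam * ‖v‖ ^ 2 ≤ Q x v)
    (γ : ℝ → E) (a b : ℝ) (hγ : ContDiff ℝ 1 γ)
    (h1 : ∀ t ∈ Set.Icc a b, ‖γ t‖ = 1) (t : ℝ) (ht : t ∈ Set.Ioo a b) :
    Real.sqrt lam * ‖deriv γ t‖ ≤ Real.sqrt (Q (γ t) (deriv γ t)) := by
  have hn : ‖γ t‖ = 1 := h1 t ⟨ht.1.le, ht.2.le⟩
  have hd : HasDerivAt γ (deriv γ t) t := (hγ.differentiable one_ne_zero t).hasDerivAt
  have hinner : inner ℝ (γ t) (deriv γ t) = 0 := by
    have h2 : HasDerivAt (fun s => inner ℝ (γ s) (γ s))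
        (inner ℝ (γ t) (deriv γ t) + inner ℝ (deriv γ t) (γ t)) t := hd.inner ℝ hd
    have h3 : (fun s => inner ℝ (γ s) (γ s)) =ᶠ[nhds t] fun _ => (1 : ℝ) := by
      filter_upwards [Ioo_mem_nhds ht.1 ht.2] with s hs
      rw [real_inner_self_eq_norm_sq, h1 s ⟨hs.1.le, hs.2.le⟩]
      norm_num
    have h4 : HasDerivAt (fun _ : ℝ => (1 : ℝ))
        (inner ℝ (γ t) (deriv γ t) + inner ℝ (deriv γ t) (γ t)) t :=
      h2.congr_of_eventuallyEq h3.symm
    have h5 := h4.unique (hasDerivAt_const t (1 : ℝ))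
    rw [real_inner_comm (γ t) (deriv γ t)] at h5
    linarith
  have h6 := hmin (γ t) _ hn hinner
  calc Real.sqrt lam * ‖deriv γ t‖ = Real.sqrt (lam * ‖deriv γ t‖ ^ 2) := by
        rw [Real.sqrt_mul hlam.le, Real.sqrt_sq (norm_nonneg _)]
    _ ≤ _ := Real.sqrt_le_sqrt h6

/-- A great circle of speed `√lam` is a geodesic in the sense of `IsGeodS`. -/
theorem isGeodS_circ (Q : E → QuadraticForm ℝ E)
    (hsm : ContDiff ℝ (⊤ : ℕ∞) (fun p : E × E => Q p.1 p.2)) (lam : ℝ) (hlam : 0 < lam)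
    (hmin : ∀ x v : E, ‖x‖ = 1 → inner ℝ x v = 0 → lam * ‖v‖ ^ 2 ≤ Q x v)
    (u w : E) (hu : ‖u‖ = 1) (hw : ‖w‖ = 1) (huw : inner ℝ u w = 0)
    (hspeed : ∀ s : ℝ, Q (circ u w s) (-Real.sin s • u + Real.cos s • w) = lam) :
    IsGeodS Q (circ u w) := by
  have hnorm : ∀ t, ‖circ u w t‖ = 1 := circ_norm u w hu hw huw
  have hlen : ∀ s s' : ℝ, s ≤ s' → lenS Q (circ u w) s s' = Real.sqrt lam * (s' - s) := by
    intro s s' _
    unfold lenS
    have hconst : ∀ t, Real.sqrt (Q (circ u w t) (deriv (circ u w) t)) = Real.sqrt lam := by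
      intro t
      rw [circ_deriv, hspeed t]
    simp_rw [hconst]
    rw [intervalIntegral.integral_const, smul_eq_mul]
    ring
  refine ⟨circ_contDiff _ _, hnorm, ⟨Real.sqrt lam, Real.sqrt_pos.mpr hlam, hlen⟩,
    Real.pi, Real.pi_pos, ?_⟩
  intro s s' hss hss' γ a b hab hγ h1 ha hb
  have hang : angle (γ a) (γ b) = s' - s := by
    rw [ha, hb]
    exact circ_angle u w hu hw huw s s' hss hss'
  have hL := angle_le_integral γ a b hab hγ h1
  have hcont1 : Continuous fun t => Real.sqrt lam * ‖deriv γ t‖ :=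
    continuous_const.mul (hγ.continuous_deriv le_rfl).norm
  have hcont2 := sph_speed_continuous Q hsm γ hγ
  have hmono : ∫ t in a..b, Real.sqrt lam * ‖deriv γ t‖ ≤ lenS Q γ a b := by
    unfold lenS
    exact intervalIntegral.integral_mono_on_of_le_Ioo hab (hcont1.intervalIntegrable _ _)
      (hcont2.intervalIntegrable _ _)
      (fun t ht => sph_speed_ge Q lam hlam hmin γ a b hγ h1 t ht)
  calc lenS Q (circ u w) s s' = Real.sqrt lam * (s' - s) := hlen s s' hss
    _ = Real.sqrt lam * angle (γ a) (γ b) := by rw [hang]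
    _ ≤ Real.sqrt lam * ∫ t in a..b, ‖deriv γ t‖ :=
        mul_le_mul_of_nonneg_left hL (Real.sqrt_nonneg _)
    _ = ∫ t in a..b, Real.sqrt lam * ‖deriv γ t‖ :=
        (intervalIntegral.integral_const_mul _ _).symm
    _ ≤ lenS Q γ a b := hmono

end Vale.Agent.H58.Sph
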