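import Mathlib

/-!
# P216: two orthonormal vectors orthogonal to a given unit vector, in dimension at least three

In a finite-dimensional real inner product space `E` of dimension at least `3`, the orthogonal
complement of the line spanned by a unit vector `N` has dimension at least `2`, so its standard
orthonormal basis has at least two members.  (Same argument as `exists_frame` in `Frame.lean`,
for a general space.)
-/

namespace Vale.Agent.H58.Sph

theorem exists_frame_gen {E : Type*} [NormedAddCommGroup E] [InnerProductSpace ℝ E]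
    [FiniteDimensional ℝ E] (hdim : 3 ≤ Module.finrank ℝ E) (N : E) (hN : ‖N‖ = 1) :
    ∃ e1 e2 : E, ‖e1‖ = 1 ∧ ‖e2‖ = 1 ∧ inner ℝ e1 e2 = 0 ∧
      inner ℝ N e1 = 0 ∧ inner ℝ N e2 = 0 := by
  have hN0 : N ≠ 0 := by
    intro h
    rw [h, norm_zero] at hN
    exact zero_ne_one hN
  obtain ⟨n, hn⟩ : ∃ n : ℕ, Module.finrank ℝ E = n + 1 := ⟨Module.finrank ℝ E - 1, by omega⟩
  have : Fact (Module.finrank ℝ E = n + 1) := ⟨hn⟩
  have hK : Module.finrank ℝ (Submodule.span ℝ {N})ᗮ = n :=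
    Submodule.finrank_orthogonal_span_singleton hN0
  have h0 : 0 < Module.finrank ℝ (Submodule.span ℝ {N})ᗮ := by omega
  have h1 : 1 < Module.finrank ℝ (Submodule.span ℝ {N})ᗮ := by omega
  have hne : (⟨0, h0⟩ : Fin (Module.finrank ℝ (Submodule.span ℝ {N})ᗮ)) ≠ ⟨1, h1⟩ := by
    simp [Fin.ext_iff]
  have hon := (stdOrthonormalBasis ℝ (Submodule.span ℝ {N})ᗮ).orthonormal
  refine ⟨(stdOrthonormalBasis ℝ (Submodule.span ℝ {N})ᗮ ⟨0, h0⟩ : (Submodule.span ℝ {N})ᗮ),
    (stdOrthonormalBasis ℝ (Submodule.span ℝ {N})ᗮ ⟨1, h1⟩ : (Submodule.span ℝ {N})ᗮ),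
    ?_, ?_, ?_, ?_, ?_⟩
  · rw [← Submodule.coe_norm]
    exact hon.1 ⟨0, h0⟩
  · rw [← Submodule.coe_norm]
    exact hon.1 ⟨1, h1⟩
  · rw [← Submodule.coe_inner]
    exact hon.2 hne
  · exact Submodule.mem_orthogonal_singleton_iff_inner_right.mp
      (stdOrthonormalBasis ℝ (Submodule.span ℝ {N})ᗮ ⟨0, h0⟩).2
  · exact Submodule.mem_orthogonal_singleton_iff_inner_right.mp
      (stdOrthonormalBasis ℝ (Submodule.span ℝ {N})ᗮ ⟨1, h1⟩).2

end Vale.Agent.H58.Sph
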