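import Mathlib
import Vale.Agent.H58.Sph.Defs
import Vale.Agent.H58.Sph.Core
import Vale.Agent.H58.Sph.FrameGen

/-!
# P216: Hopf circles of a complex structure are closed geodesics

`E` is a real inner product space and `J : E →ₗ[ℝ] E` a complex structure compatible with the norm
(`‖J x‖ = ‖x‖`, `J (J x) = -x`).  The Hopf field is `x ↦ J x`, tangent to the unit sphere, and its
integral curves are the great circles `circ g (J g)`, `‖g‖ = 1`.  If a metric `Q` on the sphere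
dominates `lam` times the round metric and the Hopf field has `Q`-length `√lam` everywhere, every
such circle is a geodesic in the sense of `IsGeodS` (`isGeodS_circ`), and infinitely many of them
have pairwise different images.
-/

namespace Vale.Agent.H58.Sph

open Vale.Agent.H58.Geod

variable {E : Type*} [NormedAddCommGroup E] [InnerProductSpace ℝ E]

/-- A norm-preserving linear map preserves inner products. -/
theorem hopf_inner (J : E →ₗ[ℝ] E) (hJ : ∀ x, ‖J x‖ = ‖x‖) (x y : E) :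
    inner ℝ (J x) (J y) = inner ℝ x y :=
  (LinearMap.norm_map_iff_inner_map_map J).mp hJ x y

/-- `x` and `J x` are orthogonal. -/
theorem hopf_orth (J : E →ₗ[ℝ] E) (hJ : ∀ x, ‖J x‖ = ‖x‖) (hJJ : ∀ x, J (J x) = -x) (x : E) :
    inner ℝ x (J x) = 0 := by
  have h := hopf_inner J hJ x (J x)
  rw [hJJ, inner_neg_right, real_inner_comm] at h
  linarith

/-- The velocity of a Hopf circle is `J` of its position. -/
theorem hopf_velocity (J : E →ₗ[ℝ] E) (hJJ : ∀ x, J (J x) = -x) (g : E) (s : ℝ) :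
    -Real.sin s • g + Real.cos s • J g = J (circ g (J g) s) := by
  unfold circ
  rw [map_add, map_smul, map_smul, hJJ, smul_neg, neg_smul]
  abel

/-- Every Hopf circle is a geodesic in the sense of `IsGeodS`. -/
theorem hopf_isGeodS (Q : E → QuadraticForm ℝ E)
    (hsm : ContDiff ℝ (⊤ : ℕ∞) (fun p : E × E => Q p.1 p.2)) (lam : ℝ) (hlam : 0 < lam)
    (hmin : ∀ x v : E, ‖x‖ = 1 → inner ℝ x v = 0 → lam * ‖v‖ ^ 2 ≤ Q x v)
    (J : E →ₗ[ℝ] E) (hJ : ∀ x, ‖J x‖ = ‖x‖) (hJJ : ∀ x, J (J x) = -x)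
    (heq : ∀ x : E, ‖x‖ = 1 → Q x (J x) = lam) (g : E) (hg : ‖g‖ = 1) :
    IsGeodS Q (circ g (J g)) := by
  have hJg : ‖J g‖ = 1 := by rw [hJ, hg]
  refine isGeodS_circ Q hsm lam hlam hmin g (J g) hg hJg (hopf_orth J hJ hJJ g) ?_
  intro s
  rw [hopf_velocity J hJJ g s]
  exact heq _ (circ_norm g (J g) hg hJg (hopf_orth J hJ hJJ g) s)

/-- A unit vector `e` and a unit vector `f` orthogonal to `e` and to `J e`. -/
theorem exists_hopf_frame [FiniteDimensional ℝ E] (hdim : 3 ≤ Module.finrank ℝ E)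
    (J : E →ₗ[ℝ] E) :
    ∃ e f : E, ‖e‖ = 1 ∧ ‖f‖ = 1 ∧ inner ℝ e f = 0 ∧ inner ℝ (J e) f = 0 := by
  have hnt : Nontrivial E := Module.nontrivial_of_finrank_pos (R := ℝ) (by omega)
  obtain ⟨e, he⟩ : ∃ e : E, ‖e‖ = 1 := exists_norm_eq E zero_le_one
  obtain ⟨e1, e2, h1, h2, h12, he1, he2⟩ := exists_frame_gen hdim e he
  by_cases hab : inner ℝ (J e) e1 = 0
  · exact ⟨e, e1, he, h1, he1, hab⟩
  · have hpos : 0 < inner ℝ (J e) e1 ^ 2 + inner ℝ (J e) e2 ^ 2 := by positivity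
    have hn : ‖inner ℝ (J e) e2 • e1 - inner ℝ (J e) e1 • e2‖ ^ 2 =
        inner ℝ (J e) e1 ^ 2 + inner ℝ (J e) e2 ^ 2 := by
      rw [norm_sub_sq_real, norm_smul, norm_smul, h1, h2, inner_smul_left, inner_smul_right, h12]
      simp only [Real.norm_eq_abs, mul_one, mul_zero, sub_zero, sq_abs]
      ring
    have hn0 : ‖inner ℝ (J e) e2 • e1 - inner ℝ (J e) e1 • e2‖ ≠ 0 := by
      intro h0
      rw [h0] at hn
      nlinarith
    refine ⟨e, (‖inner ℝ (J e) e2 • e1 - inner ℝ (J e) e1 • e2‖)⁻¹ •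
      (inner ℝ (J e) e2 • e1 - inner ℝ (J e) e1 • e2), he, ?_, ?_, ?_⟩
    · rw [norm_smul, norm_inv, norm_norm, inv_mul_cancel₀ hn0]
    · rw [inner_smul_right, inner_sub_right, inner_smul_right, inner_smul_right, he1, he2]
      ring
    · rw [inner_smul_right, inner_sub_right, inner_smul_right, inner_smul_right]
      ring

/-- Hopf circles through `cos θ • e + sin θ • f` for different small `θ` are different. -/
theorem hopf_ranges (J : E →ₗ[ℝ] E) (hJ : ∀ x, ‖J x‖ = ‖x‖) (hJJ : ∀ x, J (J x) = -x)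
    (e f : E) (he : ‖e‖ = 1) (hf : ‖f‖ = 1) (hef : inner ℝ e f = 0)
    (hJef : inner ℝ (J e) f = 0) (θ θ' s : ℝ) (hcos : 0 < Real.cos θ)
    (h : Real.sin (θ' - θ) ≠ 0) :
    circ e f θ' ≠ circ (circ e f θ) (J (circ e f θ)) s := by
  intro hEq
  have hJe_e : inner ℝ (J e) e = 0 := by
    rw [real_inner_comm]
    exact hopf_orth J hJ hJJ e
  have hJeJe : inner ℝ (J e) (J e) = 1 := by
    rw [real_inner_self_eq_norm_sq, hJ, he]
    norm_num
  have hJeJf : inner ℝ (J e) (J f) = 0 := by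
    rw [hopf_inner J hJ]
    exact hef
  have key1 := congrArg (fun v => inner ℝ (J e) v) hEq
  simp only [circ, map_add, map_smul, inner_add_right, inner_smul_right, hJe_e, hJef, hJeJe,
    hJeJf] at key1
  have hs : Real.sin s = 0 := by
    have h1 : Real.sin s * Real.cos θ = 0 := by linarith [key1]
    rcases mul_eq_zero.mp h1 with h2 | h2
    · exact h2
    · exact absurd h2 hcos.ne'
  have hEq2 : circ e f θ' = Real.cos s • circ e f θ := by
    rw [hEq]
    show Real.cos s • circ e f θ + Real.sin s • J (circ e f θ) = Real.cos s • circ e f θ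
    rw [hs, zero_smul, add_zero]
  have hee : inner ℝ e e = 1 := by
    rw [real_inner_self_eq_norm_sq, he]
    norm_num
  have hff : inner ℝ f f = 1 := by
    rw [real_inner_self_eq_norm_sq, hf]
    norm_num
  have hfe : inner ℝ f e = 0 := by
    rw [real_inner_comm]
    exact hef
  have k1 := congrArg (fun v => inner ℝ e v) hEq2
  have k2 := congrArg (fun v => inner ℝ f v) hEq2
  simp only [circ, inner_add_right, inner_smul_right, hee, hef, hfe, hff] at k1 k2
  have c1 : Real.cos θ' = Real.cos s * Real.cos θ := by linarith [k1]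
  have c2 : Real.sin θ' = Real.cos s * Real.sin θ := by linarith [k2]
  apply h
  rw [Real.sin_sub, c1, c2]
  ring

/-- The reciprocals `1 / (k + 1)` differ by less than `π`, so the sine of a difference of two
different ones is not zero. -/
theorem sin_inv_sub_ne (k l : ℕ) (hkl : k ≠ l) :
    Real.sin (1 / ((k : ℝ) + 1) - 1 / ((l : ℝ) + 1)) ≠ 0 := by
  have hk0 : (0 : ℝ) < (k : ℝ) + 1 := by positivity
  have hl0 : (0 : ℝ) < (l : ℝ) + 1 := by positivity
  have hk1 : 1 / ((k : ℝ) + 1) ≤ 1 := by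
    rw [div_le_one hk0]
    linarith [(Nat.cast_nonneg k : (0 : ℝ) ≤ k)]
  have hl1 : 1 / ((l : ℝ) + 1) ≤ 1 := by
    rw [div_le_one hl0]
    linarith [(Nat.cast_nonneg l : (0 : ℝ) ≤ l)]
  have hkp : 0 < 1 / ((k : ℝ) + 1) := by positivity
  have hlp : 0 < 1 / ((l : ℝ) + 1) := by positivity
  have hpi : (3 : ℝ) < Real.pi := Real.pi_gt_three
  intro hsin
  rw [Real.sin_eq_zero_iff_of_lt_of_lt (by linarith) (by linarith)] at hsin
  have h3 : 1 / ((k : ℝ) + 1) = 1 / ((l : ℝ) + 1) := by linarith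
  rw [div_eq_div_iff hk0.ne' hl0.ne'] at h3
  have h4 : (k : ℝ) = l := by linarith
  exact hkl (by exact_mod_cast h4)

/-- The Hopf family: infinitely many simple closed geodesics with pairwise different images. -/
theorem hopf_family_fd [FiniteDimensional ℝ E] (hdim : 3 ≤ Module.finrank ℝ E)
    (Q : E → QuadraticForm ℝ E)
    (hsm : ContDiff ℝ (⊤ : ℕ∞) (fun p : E × E => Q p.1 p.2)) (lam : ℝ) (hlam : 0 < lam)
    (hmin : ∀ x v : E, ‖x‖ = 1 → inner ℝ x v = 0 → lam * ‖v‖ ^ 2 ≤ Q x v)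
    (J : E →ₗ[ℝ] E) (hJ : ∀ x, ‖J x‖ = ‖x‖) (hJJ : ∀ x, J (J x) = -x)
    (heq : ∀ x : E, ‖x‖ = 1 → Q x (J x) = lam) :
    ∃ c : ℕ → ℝ → E, (∀ k, IsGeodS Q (c k)) ∧
      (∀ k, Function.Periodic (c k) (2 * Real.pi)) ∧
      (∀ k, Set.InjOn (c k) (Set.Ico 0 (2 * Real.pi))) ∧
      ∀ k l, k ≠ l → Set.range (c k) ≠ Set.range (c l) := by
  obtain ⟨e, f, he, hf, hef, hJef⟩ := exists_hopf_frame hdim J
  have hg : ∀ θ : ℝ, ‖circ e f θ‖ = 1 := circ_norm e f he hf hef
  refine ⟨fun k => circ (circ e f (1 / ((k : ℝ) + 1))) (J (circ e f (1 / ((k : ℝ) + 1)))),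
    ?_, ?_, ?_, ?_⟩
  · intro k
    exact hopf_isGeodS Q hsm lam hlam hmin J hJ hJJ heq _ (hg _)
  · intro k
    exact circ_periodic _ _
  · intro k
    exact circ_injOn _ _ (hg _) (by rw [hJ, hg]) (hopf_orth J hJ hJJ _)
  · intro k l hkl hEq
    have h0 : circ e f (1 / ((k : ℝ) + 1)) ∈
        Set.range (circ (circ e f (1 / ((k : ℝ) + 1))) (J (circ e f (1 / ((k : ℝ) + 1))))) :=
      ⟨0, by simp [circ]⟩
    have hEq' : Set.range (circ (circ e f (1 / ((k : ℝ) + 1)))
          (J (circ e f (1 / ((k : ℝ) + 1)))))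
        = Set.range (circ (circ e f (1 / ((l : ℝ) + 1)))
          (J (circ e f (1 / ((l : ℝ) + 1))))) := hEq
    rw [hEq'] at h0
    obtain ⟨s, hs⟩ := h0
    have hl0 : (0 : ℝ) < (l : ℝ) + 1 := by positivity
    have hl1 : 1 / ((l : ℝ) + 1) ≤ 1 := by
      rw [div_le_one hl0]
      linarith [(Nat.cast_nonneg l : (0 : ℝ) ≤ l)]
    have hlp : 0 < 1 / ((l : ℝ) + 1) := by positivity
    have hpi : (3 : ℝ) < Real.pi := Real.pi_gt_three
    have hcos : 0 < Real.cos (1 / ((l : ℝ) + 1)) :=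
      Real.cos_pos_of_mem_Ioo ⟨by linarith, by linarith⟩
    exact hopf_ranges J hJ hJJ e f he hf hef hJef (1 / ((l : ℝ) + 1)) (1 / ((k : ℝ) + 1)) s hcos
      (sin_inv_sub_ne k l hkl) hs.symm

end Vale.Agent.H58.Sph
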