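import Mathlib

/-!
# P216, row S3: two orthonormal vectors orthogonal to a given unit vector

In `EuclideanSpace ℝ (Fin (n + 1))` with `2 ≤ n`, the orthogonal complement of the line spanned
by a unit vector `N` has dimension `n ≥ 2` (`Submodule.finrank_orthogonal_span_singleton`, or
`Submodule.finrank_add_finrank_orthogonal` with `finrank_span_singleton`), so it has an
orthonormal basis (`stdOrthonormalBasis`) with at least two members; take two of them.
-/

namespace Vale.Agent.H58.Sph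

theorem exists_frame (n : ℕ) (hn : 2 ≤ n) (N : EuclideanSpace ℝ (Fin (n + 1))) (hN : ‖N‖ = 1) :
    ∃ e1 e2 : EuclideanSpace ℝ (Fin (n + 1)), ‖e1‖ = 1 ∧ ‖e2‖ = 1 ∧ inner ℝ e1 e2 = 0 ∧
      inner ℝ N e1 = 0 ∧ inner ℝ N e2 = 0 := by
  have hN0 : N ≠ 0 := by
    intro h
    rw [h, norm_zero] at hN
    exact zero_ne_one hN
  have : Fact (Module.finrank ℝ (EuclideanSpace ℝ (Fin (n + 1))) = n + 1) := ⟨by simp⟩
  have hK : Module.finrank ℝ (Submodule.span ℝ {N})ᗮ = n :=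
    Submodule.finrank_orthogonal_span_singleton hN0
  have h0 : 0 < Module.finrank ℝ (Submodule.span ℝ {N})ᗮ := by omega
  have h1 : 1 < Module.finrank ℝ (Submodule.span ℝ {N})ᗮ := by omega
  have hne : (⟨0, h0⟩ : Fin (Module.finrank ℝ (Submodule.span ℝ {N})ᗮ)) ≠ ⟨1, h1⟩ := by
    simp [Fin.ext_iff]
  have hon := (stdOrthonormalBasis ℝ (Submodule.span ℝ {N})ᗮ).orthonormal
  refine ⟨(stdOrthonormalBasis ℝ (Submodule.span ℝ {N})ᗮ ⟨0, h0⟩ : (Submodule.span ℝ {N})ᗮ),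
    (stdOrthonormalBasis ℝ (Submodule.span ℝ {N})ᗮ ⟨1, h1⟩ : (Submodule.span ℝ {N})ᗮ),
    ?_, ?_, ?_, ?_, ?_⟩
  · rw [← Submodule.coe_norm]
    exact hon.1 ⟨0, h0⟩
  · rw [← Submodule.coe_norm]
    exact hon.1 ⟨1, h1⟩
  · rw [← Submodule.coe_inner]
    exact hon.2 hne
  · exact Submodule.mem_orthogonal_singleton_iff_inner_right.mp
      (stdOrthonormalBasis ℝ (Submodule.span ℝ {N})ᗮ ⟨0, h0⟩).2
  · exact Submodule.mem_orthogonal_singleton_iff_inner_right.mp
      (stdOrthonormalBasis ℝ (Submodule.span ℝ {N})ᗮ ⟨1, h1⟩).2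

end Vale.Agent.H58.Sph
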