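import Mathlib
import Vale.Agent.H58.Geod.CircA

/-!
# P216, row S1: the speed of a great circle through the pole

`N`, `u` orthonormal, `x = circ N u s = cos s • N + sin s • u`.  Then `inner ℝ N x = cos s` and
`N - cos s • x = sin s ^ 2 • N - (sin s * cos s) • u = (-sin s) • (-sin s • N + cos s • u)`, of norm
`|sin s|`.  So the hypothesis `heq` at `x` and `QuadraticMap.map_smul` give
`sin s ^ 2 * Q x (-sin s • N + cos s • u) = lam * sin s ^ 2`, hence the claim when `sin s ≠ 0`.
The function `s ↦ Q (circ N u s) (-sin s • N + cos s • u)` is continuous (`hsm.continuous`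
composed with a continuous map into the product), and for `sin s = 0` the points `s + 1 / (k + 1)`
have non-zero sine (`Real.sin_add`, or `Real.sin_eq_zero_iff`) and tend to `s`; conclude with
`tendsto_nhds_unique`.
-/

namespace Vale.Agent.H58.Sph

open Vale.Agent.H58.Geod

variable {E : Type*} [NormedAddCommGroup E] [InnerProductSpace ℝ E]

theorem pole_aux (Q : E → QuadraticForm ℝ E) (lam : ℝ)
    (N u : E) (hN : ‖N‖ = 1) (hu : ‖u‖ = 1) (hNu : inner ℝ N u = 0)
    (heq : ∀ x : E, ‖x‖ = 1 →
      Q x (N - inner ℝ N x • x) = lam * ‖N - inner ℝ N x • x‖ ^ 2) (s : ℝ) :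
    Real.sin s ^ 2 * Q (circ N u s) (-Real.sin s • N + Real.cos s • u)
      = lam * Real.sin s ^ 2 := by
  have hx : ‖circ N u s‖ = 1 := circ_norm N u hN hu hNu s
  have hin : inner ℝ N (circ N u s) = Real.cos s := by
    unfold circ
    rw [inner_add_right, real_inner_smul_right, real_inner_smul_right, hNu,
      real_inner_self_eq_norm_sq, hN]
    ring
  have ht : -Real.sin s • N + Real.cos s • u = circ N u (s + Real.pi / 2) := by
    unfold circ
    rw [Real.cos_add_pi_div_two, Real.sin_add_pi_div_two]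
  have htn : ‖-Real.sin s • N + Real.cos s • u‖ = 1 := by
    rw [ht]
    exact circ_norm N u hN hu hNu _
  have hvec : N - Real.cos s • circ N u s
      = (-Real.sin s) • (-Real.sin s • N + Real.cos s • u) := by
    unfold circ
    have h1 := Real.sin_sq_add_cos_sq s
    rw [smul_add, smul_add, smul_smul, smul_smul, smul_smul, smul_smul]
    have h2 : -Real.sin s * -Real.sin s = 1 - Real.cos s * Real.cos s := by nlinarith [h1]
    rw [h2, sub_smul, one_smul]
    have h3 : -Real.sin s * Real.cos s = -(Real.cos s * Real.sin s) := by ring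
    rw [h3, neg_smul]
    abel
  have h := heq (circ N u s) hx
  rw [hin, hvec, QuadraticMap.map_smul, norm_smul, htn] at h
  rw [smul_eq_mul, mul_one, Real.norm_eq_abs, sq_abs] at h
  linear_combination h

theorem pole_of_sin_ne (Q : E → QuadraticForm ℝ E) (lam : ℝ)
    (N u : E) (hN : ‖N‖ = 1) (hu : ‖u‖ = 1) (hNu : inner ℝ N u = 0)
    (heq : ∀ x : E, ‖x‖ = 1 →
      Q x (N - inner ℝ N x • x) = lam * ‖N - inner ℝ N x • x‖ ^ 2) (s : ℝ)
    (hs : Real.sin s ≠ 0) :
    Q (circ N u s) (-Real.sin s • N + Real.cos s • u) = lam := by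
  have h := pole_aux Q lam N u hN hu hNu heq s
  have h2 : Real.sin s ^ 2 ≠ 0 := pow_ne_zero 2 hs
  have h3 : Real.sin s ^ 2 * (Q (circ N u s) (-Real.sin s • N + Real.cos s • u) - lam) = 0 := by
    linear_combination h
  rcases mul_eq_zero.mp h3 with h4 | h4
  · exact absurd h4 h2
  · linarith

theorem pole_speed (Q : E → QuadraticForm ℝ E)
    (hsm : ContDiff ℝ (⊤ : ℕ∞) (fun p : E × E => Q p.1 p.2)) (lam : ℝ)
    (N u : E) (hN : ‖N‖ = 1) (hu : ‖u‖ = 1) (hNu : inner ℝ N u = 0)
    (heq : ∀ x : E, ‖x‖ = 1 →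
      Q x (N - inner ℝ N x • x) = lam * ‖N - inner ℝ N x • x‖ ^ 2) (s : ℝ) :
    Q (circ N u s) (-Real.sin s • N + Real.cos s • u) = lam := by
  by_cases hs : Real.sin s = 0
  · have hcont : Continuous
        (fun r : ℝ => Q (circ N u r) (-Real.sin r • N + Real.cos r • u)) := by
      have h1 : Continuous (fun r : ℝ => (circ N u r, -Real.sin r • N + Real.cos r • u)) :=
        (circ_contDiff N u).continuous.prodMk
          (((Real.continuous_sin.neg).smul continuous_const).add
            (Real.continuous_cos.smul continuous_const))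
      exact hsm.continuous.comp h1
    have hlim : Filter.Tendsto (fun k : ℕ => s + 1 / ((k : ℝ) + 1)) Filter.atTop (nhds s) := by
      have h0 := (tendsto_one_div_add_atTop_nhds_zero_nat (𝕜 := ℝ)).const_add s
      rw [add_zero] at h0
      exact h0
    have hval : ∀ k : ℕ, Q (circ N u (s + 1 / ((k : ℝ) + 1)))
        (-Real.sin (s + 1 / ((k : ℝ) + 1)) • N + Real.cos (s + 1 / ((k : ℝ) + 1)) • u)
          = lam := by
      intro k
      have hk0 : (0 : ℝ) ≤ k := Nat.cast_nonneg k
      have hpos : (0 : ℝ) < 1 / ((k : ℝ) + 1) := by positivity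
      have hle : 1 / ((k : ℝ) + 1) ≤ 1 := by
        rw [div_le_one (by positivity)]
        linarith
      have hsin : Real.sin (s + 1 / ((k : ℝ) + 1)) ≠ 0 := by
        rw [Real.sin_add, hs, zero_mul, zero_add]
        have hc : Real.cos s ≠ 0 := by
          intro hc
          have h5 := Real.sin_sq_add_cos_sq s
          rw [hs, hc] at h5
          norm_num at h5
        have hsp : 0 < Real.sin (1 / ((k : ℝ) + 1)) :=
          Real.sin_pos_of_pos_of_lt_pi hpos (by linarith [Real.pi_gt_three])
        exact mul_ne_zero hc hsp.ne'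
      exact pole_of_sin_ne Q lam N u hN hu hNu heq _ hsin
    have hl1 : Filter.Tendsto (fun k : ℕ => Q (circ N u (s + 1 / ((k : ℝ) + 1)))
        (-Real.sin (s + 1 / ((k : ℝ) + 1)) • N + Real.cos (s + 1 / ((k : ℝ) + 1)) • u))
        Filter.atTop (nhds (Q (circ N u s) (-Real.sin s • N + Real.cos s • u))) :=
      (hcont.tendsto s).comp hlim
    have hl2 : Filter.Tendsto (fun k : ℕ => Q (circ N u (s + 1 / ((k : ℝ) + 1)))
        (-Real.sin (s + 1 / ((k : ℝ) + 1)) • N + Real.cos (s + 1 / ((k : ℝ) + 1)) • u))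
        Filter.atTop (nhds lam) := by
      rw [funext hval]
      exact tendsto_const_nhds
    exact tendsto_nhds_unique hl1 hl2
  · exact pole_of_sin_ne Q lam N u hN hu hNu heq s hs

end Vale.Agent.H58.Sph
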