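import Mathlib
import Vale.Agent.H58.Geod.CircA

/-!
# P216, row S2: great circles through the pole in different directions are different

`N`, `e1`, `e2` orthonormal.  If `circ e1 e2 θ' = circ N (circ e1 e2 θ) s`, i.e.
`cos θ' • e1 + sin θ' • e2 = cos s • N + (sin s * cos θ) • e1 + (sin s * sin θ) • e2`, then taking
inner products with `N`, `e1`, `e2` gives `cos s = 0`, `cos θ' = sin s * cos θ`,
`sin θ' = sin s * sin θ`, so `sin (θ' - θ) = sin θ' * cos θ - cos θ' * sin θ = 0`.
-/

namespace Vale.Agent.H58.Sph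

open Vale.Agent.H58.Geod

variable {E : Type*} [NormedAddCommGroup E] [InnerProductSpace ℝ E]

theorem pole_ranges (N e1 e2 : E) (hN : ‖N‖ = 1) (h1 : ‖e1‖ = 1) (h2 : ‖e2‖ = 1)
    (h12 : inner ℝ e1 e2 = 0) (hN1 : inner ℝ N e1 = 0) (hN2 : inner ℝ N e2 = 0) (θ θ' s : ℝ)
    (h : Real.sin (θ' - θ) ≠ 0) :
    circ e1 e2 θ' ≠ circ N (circ e1 e2 θ) s := by
  intro heq
  have hc1 : inner ℝ e1 (circ e1 e2 θ') = inner ℝ e1 (circ N (circ e1 e2 θ) s) := by rw [heq]
  have hc2 : inner ℝ e2 (circ e1 e2 θ') = inner ℝ e2 (circ N (circ e1 e2 θ) s) := by rw [heq]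
  have h11 : inner ℝ e1 e1 = 1 := by rw [real_inner_self_eq_norm_sq, h1]; norm_num
  have h22 : inner ℝ e2 e2 = 1 := by rw [real_inner_self_eq_norm_sq, h2]; norm_num
  have h21 : inner ℝ e2 e1 = 0 := by rw [real_inner_comm]; exact h12
  have h1N : inner ℝ e1 N = 0 := by rw [real_inner_comm]; exact hN1
  have h2N : inner ℝ e2 N = 0 := by rw [real_inner_comm]; exact hN2
  simp only [circ, inner_add_right, inner_smul_right, h11, h22, h12, h21, h1N, h2N] at hc1 hc2
  apply h
  rw [Real.sin_sub]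
  linear_combination (Real.cos θ) * hc2 - (Real.sin θ) * hc1

/-- The value of a great circle at a quarter period. -/
theorem circ_quarter (u w : E) : circ u w (Real.pi / 2) = w := by
  unfold circ
  rw [Real.cos_pi_div_two, Real.sin_pi_div_two, zero_smul, one_smul, zero_add]

end Vale.Agent.H58.Sph
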