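import Mathlib
import Vale.Agent.H58.Sph.Defs
import Vale.Agent.H58.Sph.Core
import Vale.Agent.H58.Sph.Pole
import Vale.Agent.H58.Sph.Ranges
import Vale.Agent.H58.Sph.Frame
import Vale.Agent.H58.Sph.FrameGen

/-!
# P216: assembly for spheres.  Great circles through a pole are closed geodesics

Let `Q` be a smooth field of quadratic forms on `E` (a metric on the unit sphere through
`g_x (v, v) = Q x v` for `v` orthogonal to `x`) with `Q x v ≥ lam * ‖v‖ ^ 2` for tangent `v`, and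
with equality in the meridian direction `N - inner ℝ N x • x` of a pole `N`.  Then every great
circle through `N` is a geodesic in the sense of `IsGeodS` (`isGeodS_circ`, `pole_speed`), and
the great circles in the directions `cos θ • e1 + sin θ • e2`, `θ = 1 / (k + 1)`, have pairwise
different images (`pole_ranges`).
-/

namespace Vale.Agent.H58.Sph

open Vale.Agent.H58.Geod

/-- The general statement, in a real inner product space with an orthonormal triple. -/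
theorem pole_family {E : Type*} [NormedAddCommGroup E] [InnerProductSpace ℝ E]
    (Q : E → QuadraticForm ℝ E)
    (hsm : ContDiff ℝ (⊤ : ℕ∞) (fun p : E × E => Q p.1 p.2))
    (N : E) (hN : ‖N‖ = 1) (lam : ℝ) (hlam : 0 < lam)
    (hmin : ∀ x v : E, ‖x‖ = 1 → inner ℝ x v = 0 → lam * ‖v‖ ^ 2 ≤ Q x v)
    (heq : ∀ x : E, ‖x‖ = 1 →
      Q x (N - inner ℝ N x • x) = lam * ‖N - inner ℝ N x • x‖ ^ 2)
    (e1 e2 : E) (h1 : ‖e1‖ = 1) (h2 : ‖e2‖ = 1) (h12 : inner ℝ e1 e2 = 0)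
    (hN1 : inner ℝ N e1 = 0) (hN2 : inner ℝ N e2 = 0) :
    ∃ c : ℕ → ℝ → E, (∀ k, IsGeodS Q (c k)) ∧
      (∀ k, Function.Periodic (c k) (2 * Real.pi)) ∧
      (∀ k, Set.InjOn (c k) (Set.Ico 0 (2 * Real.pi))) ∧
      ∀ k l, k ≠ l → Set.range (c k) ≠ Set.range (c l) := by
  have hu : ∀ θ : ℝ, ‖circ e1 e2 θ‖ = 1 := circ_norm e1 e2 h1 h2 h12
  have hNu : ∀ θ : ℝ, inner ℝ N (circ e1 e2 θ) = 0 := by
    intro θ
    unfold circ
    rw [inner_add_right, inner_smul_right, inner_smul_right, hN1, hN2]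
    ring
  refine ⟨fun k => circ N (circ e1 e2 (1 / ((k : ℝ) + 1))), ?_, ?_, ?_, ?_⟩
  · intro k
    exact isGeodS_circ Q hsm lam hlam hmin N _ hN (hu _) (hNu _)
      (fun s => pole_speed Q hsm lam N _ hN (hu _) (hNu _) heq s)
  · intro k
    exact circ_periodic _ _
  · intro k
    exact circ_injOn _ _ hN (hu _) (hNu _)
  · intro k l hkl hEq
    have h0 : circ e1 e2 (1 / ((k : ℝ) + 1)) ∈
        Set.range (circ N (circ e1 e2 (1 / ((k : ℝ) + 1)))) :=
      ⟨Real.pi / 2, circ_quarter _ _⟩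
    have hEq' : Set.range (circ N (circ e1 e2 (1 / ((k : ℝ) + 1))))
        = Set.range (circ N (circ e1 e2 (1 / ((l : ℝ) + 1)))) := hEq
    rw [hEq'] at h0
    obtain ⟨s, hs⟩ := h0
    refine pole_ranges N e1 e2 hN h1 h2 h12 hN1 hN2 (1 / ((l : ℝ) + 1)) (1 / ((k : ℝ) + 1)) s ?_
      hs.symm
    have hk0 : (0 : ℝ) < (k : ℝ) + 1 := by positivity
    have hl0 : (0 : ℝ) < (l : ℝ) + 1 := by positivity
    have hk1 : 1 / ((k : ℝ) + 1) ≤ 1 := by
      rw [div_le_one hk0]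
      linarith [(Nat.cast_nonneg k : (0 : ℝ) ≤ k)]
    have hl1 : 1 / ((l : ℝ) + 1) ≤ 1 := by
      rw [div_le_one hl0]
      linarith [(Nat.cast_nonneg l : (0 : ℝ) ≤ l)]
    have hkp : 0 < 1 / ((k : ℝ) + 1) := by positivity
    have hlp : 0 < 1 / ((l : ℝ) + 1) := by positivity
    have hpi : (3 : ℝ) < Real.pi := Real.pi_gt_three
    intro hsin
    rw [Real.sin_eq_zero_iff_of_lt_of_lt (by linarith) (by linarith)] at hsin
    have h3 : 1 / ((k : ℝ) + 1) = 1 / ((l : ℝ) + 1) := by linarith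
    rw [div_eq_div_iff hk0.ne' hl0.ne'] at h3
    have h4 : (k : ℝ) = l := by linarith
    exact hkl (by exact_mod_cast h4)

/-- The statement for the `n`-sphere, `n ≥ 2`. -/
theorem pole_family_sphere (n : ℕ) (hn : 2 ≤ n)
    (Q : EuclideanSpace ℝ (Fin (n + 1)) → QuadraticForm ℝ (EuclideanSpace ℝ (Fin (n + 1))))
    (hsm : ContDiff ℝ (⊤ : ℕ∞)
      (fun p : EuclideanSpace ℝ (Fin (n + 1)) × EuclideanSpace ℝ (Fin (n + 1)) => Q p.1 p.2))
    (N : EuclideanSpace ℝ (Fin (n + 1))) (hN : ‖N‖ = 1) (lam : ℝ) (hlam : 0 < lam)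
    (hmin : ∀ x v : EuclideanSpace ℝ (Fin (n + 1)), ‖x‖ = 1 → inner ℝ x v = 0 →
      lam * ‖v‖ ^ 2 ≤ Q x v)
    (heq : ∀ x : EuclideanSpace ℝ (Fin (n + 1)), ‖x‖ = 1 →
      Q x (N - inner ℝ N x • x) = lam * ‖N - inner ℝ N x • x‖ ^ 2) :
    ∃ c : ℕ → ℝ → EuclideanSpace ℝ (Fin (n + 1)), (∀ k, IsGeodS Q (c k)) ∧
      (∀ k, Function.Periodic (c k) (2 * Real.pi)) ∧
      (∀ k, Set.InjOn (c k) (Set.Ico 0 (2 * Real.pi))) ∧
      ∀ k l, k ≠ l → Set.range (c k) ≠ Set.range (c l) := by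
  obtain ⟨e1, e2, h1, h2, h12, hN1, hN2⟩ := exists_frame n hn N hN
  exact pole_family Q hsm N hN lam hlam hmin heq e1 e2 h1 h2 h12 hN1 hN2

/-- The statement for the unit sphere of a finite-dimensional real inner product space of
dimension at least three. -/
theorem pole_family_fd {E : Type*} [NormedAddCommGroup E] [InnerProductSpace ℝ E]
    [FiniteDimensional ℝ E] (hdim : 3 ≤ Module.finrank ℝ E)
    (Q : E → QuadraticForm ℝ E)
    (hsm : ContDiff ℝ (⊤ : ℕ∞) (fun p : E × E => Q p.1 p.2))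
    (N : E) (hN : ‖N‖ = 1) (lam : ℝ) (hlam : 0 < lam)
    (hmin : ∀ x v : E, ‖x‖ = 1 → inner ℝ x v = 0 → lam * ‖v‖ ^ 2 ≤ Q x v)
    (heq : ∀ x : E, ‖x‖ = 1 →
      Q x (N - inner ℝ N x • x) = lam * ‖N - inner ℝ N x • x‖ ^ 2) :
    ∃ c : ℕ → ℝ → E, (∀ k, IsGeodS Q (c k)) ∧
      (∀ k, Function.Periodic (c k) (2 * Real.pi)) ∧
      (∀ k, Set.InjOn (c k) (Set.Ico 0 (2 * Real.pi))) ∧
      ∀ k l, k ≠ l → Set.range (c k) ≠ Set.range (c l) := by
  obtain ⟨e1, e2, h1, h2, h12, hN1, hN2⟩ := exists_frame_gen hdim N hN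
  exact pole_family Q hsm N hN lam hlam hmin heq e1 e2 h1 h2 h12 hN1 hN2

end Vale.Agent.H58.Sph
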