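import Mathlib
import Vale.Agent.H58.Sph.Main
import Vale.Agent.H58.Sph.Hopf

/-!
# P216: the pole family and the Hopf family in one statement

A metric on the unit sphere that dominates `lam` times the round metric, with equality either
along the meridian field of a pole `N` (`pole_family_fd`) or along the Hopf field `x ↦ J x` of a
norm-compatible complex structure `J` (`hopf_family_fd`), has infinitely many simple closed
geodesics with pairwise different images.
-/

namespace Vale.Agent.H58.Sph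

theorem pole_or_hopf {E : Type*} [NormedAddCommGroup E] [InnerProductSpace ℝ E]
    [FiniteDimensional ℝ E] (hdim : 3 ≤ Module.finrank ℝ E)
    (Q : E → QuadraticForm ℝ E)
    (hsm : ContDiff ℝ (⊤ : ℕ∞) (fun p : E × E => Q p.1 p.2)) (lam : ℝ) (hlam : 0 < lam)
    (hmin : ∀ x v : E, ‖x‖ = 1 → inner ℝ x v = 0 → lam * ‖v‖ ^ 2 ≤ Q x v)
    (hfield : (∃ N : E, ‖N‖ = 1 ∧ ∀ x : E, ‖x‖ = 1 →
        Q x (N - inner ℝ N x • x) = lam * ‖N - inner ℝ N x • x‖ ^ 2) ∨
      (∃ J : E →ₗ[ℝ] E, (∀ x : E, ‖J x‖ = ‖x‖) ∧ (∀ x : E, J (J x) = -x) ∧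
        ∀ x : E, ‖x‖ = 1 → Q x (J x) = lam)) :
    ∃ c : ℕ → ℝ → E, (∀ k, IsGeodS Q (c k)) ∧
      (∀ k, Function.Periodic (c k) (2 * Real.pi)) ∧
      (∀ k, Set.InjOn (c k) (Set.Ico 0 (2 * Real.pi))) ∧
      ∀ k l, k ≠ l → Set.range (c k) ≠ Set.range (c l) := by
  rcases hfield with ⟨N, hN, heq⟩ | ⟨J, hJ, hJJ, heq⟩
  · exact pole_family_fd hdim Q hsm N hN lam hlam hmin heq
  · exact hopf_family_fd hdim Q hsm lam hlam hmin J hJ hJJ heq

end Vale.Agent.H58.Sph
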